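import Vale.Agent.P369.FD.Stmts

/-!
P369, finite-matrix track, package FIRST (helper916): the Euler-Lagrange equation tested on the
truncated thermal flow of input `A`.
-/

set_option linter.all false

namespace Vale.Agent.P369.H916

open Matrix
open Vale.Agent.P369.FD
open scoped Kronecker ComplexOrder

noncomputable section

variable {ι ι' κ ε J : Type} [Fintype ι] [DecidableEq ι] [Fintype ι'] [DecidableEq ι']
  [Fintype κ] [DecidableEq κ] [Fintype ε] [DecidableEq ε] [Fintype J]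

/-! ### traces -/

theorem tr_mul_ptrR (X : Matrix ι ι ℂ) (T : Matrix (ι × ι') (ι × ι') ℂ) :
    (X * ptrR T).trace = ((X ⊗ₖ (1 : Matrix ι' ι' ℂ)) * T).trace := by
  simp only [Matrix.trace, Matrix.diag_apply, Matrix.mul_apply, ptrR, Fintype.sum_prod_type,
    kroneckerMap_apply, Matrix.one_apply, Finset.mul_sum]
  refine Finset.sum_congr rfl fun i _ => ?_
  rw [Finset.sum_comm]
  refine Finset.sum_congr rfl fun l _ => ?_
  refine Finset.sum_congr rfl fun k _ => ?_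
  simp

theorem trEA (W : Matrix (κ × ε) (ι × ι') ℂ) (B : Matrix ι' ι' ℂ) (Z : Matrix κ κ ℂ)
    (X : Matrix ι ι ℂ) :
    (X * EA W B Z).trace = ((X ⊗ₖ B) * (Wᴴ * (Z ⊗ₖ (1 : Matrix ε ε ℂ)) * W)).trace := by
  rw [EA, tr_mul_ptrR, ← Matrix.mul_assoc, ← mul_kronecker_mul, Matrix.mul_one, Matrix.one_mul]

theorem sub_kron (X Y : Matrix ι ι ℂ) (Z : Matrix ι' ι' ℂ) : (X - Y) ⊗ₖ Z = X ⊗ₖ Z - Y ⊗ₖ Z := by
  rw [eq_sub_iff_add_eq, ← add_kronecker, sub_add_cancel]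

theorem kron_sub (X : Matrix ι ι ℂ) (Y Z : Matrix ι' ι' ℂ) : X ⊗ₖ (Y - Z) = X ⊗ₖ Y - X ⊗ₖ Z := by
  rw [eq_sub_iff_add_eq, ← kronecker_add, sub_add_cancel]

section fac

open scoped MatrixOrder Matrix.Norms.L2Operator

theorem exists_fac {A : Matrix ι ι ℂ} (hA : A.PosSemidef) : ∃ P : Matrix ι ι ℂ, A = Pᴴ * P := by
  obtain ⟨P, hP⟩ := CStarAlgebra.nonneg_iff_eq_star_mul_self.mp hA.nonneg
  exact ⟨P, hP⟩

end fac

/-- Cauchy-Schwarz for the trace form -/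
theorem cs_trace {α β : Type} [Fintype α] [Fintype β] (P Q : Matrix α β ℂ) :
    ‖(Pᴴ * Q).trace‖ ≤ Real.sqrt (Pᴴ * P).trace.re * Real.sqrt (Qᴴ * Q).trace.re := by
  have h1 : ∀ R : Matrix α β ℂ, (Rᴴ * R).trace.re = ∑ x : β × α, ‖R x.2 x.1‖ ^ 2 := by
    intro R
    rw [Fintype.sum_prod_type]
    simp only [Matrix.trace, Matrix.diag_apply, Matrix.mul_apply, conjTranspose_apply,
      Complex.re_sum]
    refine Finset.sum_congr rfl fun i _ => Finset.sum_congr rfl fun j _ => ?_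
    have : star (R j i) * R j i = ((‖R j i‖ ^ 2 : ℝ) : ℂ) := by
      rw [Complex.star_def, ← Complex.normSq_eq_conj_mul_self, Complex.normSq_eq_norm_sq]
    rw [this, Complex.ofReal_re]
  rw [h1, h1]
  have h2 : (Pᴴ * Q).trace = ∑ x : β × α, star (P x.2 x.1) * Q x.2 x.1 := by
    rw [Fintype.sum_prod_type]
    simp only [Matrix.trace, Matrix.diag_apply, Matrix.mul_apply, conjTranspose_apply]
  rw [h2]
  refine (norm_sum_le _ _).trans ?_
  have h3 : ∀ x : β × α, ‖star (P x.2 x.1) * Q x.2 x.1‖ = ‖P x.2 x.1‖ * ‖Q x.2 x.1‖ := by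
    intro x; rw [norm_mul, norm_star]
  simp only [h3]
  exact Real.sum_mul_le_sqrt_mul_sqrt _ _ _

theorem re_trace_conj (X Y : Matrix ι ι ℂ) : (Xᴴ * Y).trace.re = (Yᴴ * X).trace.re := by
  have : (Yᴴ * X).trace = star (Xᴴ * Y).trace := by
    rw [← trace_conjTranspose, conjTranspose_mul, conjTranspose_conjTranspose]
  rw [this, Complex.star_def, Complex.conj_re]

/-- the trace of a positive semidefinite matrix times a difference -/
theorem trace_mono_conj {α β : Type} [Fintype α] [Fintype β] [DecidableEq α] [DecidableEq β]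
    {M N : Matrix α α ℂ} (h : (N - M).PosSemidef) (P : Matrix α β ℂ) :
    (Pᴴ * M * P).trace.re ≤ (Pᴴ * N * P).trace.re := by
  have h1 := h.conjTranspose_mul_mul_same P
  have h2 : (0 : ℂ) ≤ (Pᴴ * (N - M) * P).trace := h1.trace_nonneg
  have h3 := (Complex.le_def.1 h2).1
  rw [Matrix.mul_sub, Matrix.sub_mul, Matrix.trace_sub, Complex.sub_re, Complex.zero_re] at h3
  linarith

/-! ### the defect -/

section defect

variable {s t s' t' : ℝ} {a : Matrix ι ι ℂ} {b : Matrix ι' ι' ℂ} {c : Matrix κ κ ℂ}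
  {d : Matrix ε ε ℂ} {W : Matrix (κ × ε) (ι × ι') ℂ}

/-- the mixed output lowering matrix -/
def KK (s s' : ℝ) (c : Matrix κ κ ℂ) (d : Matrix ε ε ℂ) : Matrix (κ × ε) (κ × ε) ℂ :=
  ((s : ℝ) : ℂ) • (c ⊗ₖ (1 : Matrix ε ε ℂ)) + ((s' : ℝ) : ℂ) • ((1 : Matrix κ κ ℂ) ⊗ₖ d)

/-- the truncation defect of the raising intertwining relation -/
def RR (s s' : ℝ) (a : Matrix ι ι ℂ) (c : Matrix κ κ ℂ) (d : Matrix ε ε ℂ)
    (W : Matrix (κ × ε) (ι × ι') ℂ) : Matrix (κ × ε) (ι × ι') ℂ :=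
  (KK s s' c d)ᴴ * W - W * (a ⊗ₖ (1 : Matrix ι' ι' ℂ))ᴴ

theorem KK_W (h1 : s ^ 2 + s' ^ 2 = 1) (h2 : s * t + s' * t' = 0)
    (hc : (c ⊗ₖ (1 : Matrix ε ε ℂ)) * W =
      W * (((s : ℝ) : ℂ) • (a ⊗ₖ (1 : Matrix ι' ι' ℂ)) + ((t : ℝ) : ℂ) • ((1 : Matrix ι ι ℂ) ⊗ₖ b)))
    (hd : ((1 : Matrix κ κ ℂ) ⊗ₖ d) * W =
      W * (((s' : ℝ) : ℂ) • (a ⊗ₖ (1 : Matrix ι' ι' ℂ)) +
        ((t' : ℝ) : ℂ) • ((1 : Matrix ι ι ℂ) ⊗ₖ b))) :
    KK s s' c d * W = W * (a ⊗ₖ (1 : Matrix ι' ι' ℂ)) := by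
  have e1 : ((s : ℝ) : ℂ) * s + ((s' : ℝ) : ℂ) * s' = 1 := by
    have : ((s ^ 2 + s' ^ 2 : ℝ) : ℂ) = 1 := by rw [h1]; simp
    push_cast at this
    linear_combination this
  have e2 : ((s : ℝ) : ℂ) * t + ((s' : ℝ) : ℂ) * t' = 0 := by
    exact_mod_cast h2
  rw [KK, Matrix.add_mul, Matrix.smul_mul, Matrix.smul_mul, hc, hd]
  simp only [Matrix.mul_add, Matrix.mul_smul, smul_add, smul_smul]
  have : ∀ P Q : Matrix (κ × ε) (ι × ι') ℂ,
      (((s : ℝ) : ℂ) * s) • P + (((s : ℝ) : ℂ) * t) • Q +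
        ((((s' : ℝ) : ℂ) * s') • P + (((s' : ℝ) : ℂ) * t') • Q) = P := by
    intro P Q
    have : (((s : ℝ) : ℂ) * s) • P + (((s : ℝ) : ℂ) * t) • Q +
        ((((s' : ℝ) : ℂ) * s') • P + (((s' : ℝ) : ℂ) * t') • Q)
        = (((s : ℝ) : ℂ) * s + ((s' : ℝ) : ℂ) * s') • P +
          (((s : ℝ) : ℂ) * t + ((s' : ℝ) : ℂ) * t') • Q := by
      simp only [add_smul]; abel
    rw [this, e1, e2, one_smul, zero_smul, add_zero]
  exact this _ _

/-- the covariance identity with the exact truncation defect -/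
theorem cov_id (hK : KK s s' c d * W = W * (a ⊗ₖ (1 : Matrix ι' ι' ℂ))) (V : Matrix κ κ ℂ) :
    ((s : ℝ) : ℂ) • (Wᴴ * ((c * V - V * c) ⊗ₖ (1 : Matrix ε ε ℂ)) * W) =
      (a ⊗ₖ (1 : Matrix ι' ι' ℂ)) * (Wᴴ * (V ⊗ₖ (1 : Matrix ε ε ℂ)) * W) -
        (Wᴴ * (V ⊗ₖ (1 : Matrix ε ε ℂ)) * W) * (a ⊗ₖ (1 : Matrix ι' ι' ℂ)) +
        (RR s s' a c d W)ᴴ * ((V ⊗ₖ (1 : Matrix ε ε ℂ)) * W) := by
  have e1 : (V ⊗ₖ (1 : Matrix ε ε ℂ)) * KK s s' c d =
      ((s : ℝ) : ℂ) • ((V * c) ⊗ₖ (1 : Matrix ε ε ℂ)) + ((s' : ℝ) : ℂ) • (V ⊗ₖ d) := by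
    rw [KK, Matrix.mul_add, Matrix.mul_smul, Matrix.mul_smul, ← mul_kronecker_mul,
      ← mul_kronecker_mul, Matrix.mul_one, Matrix.mul_one, Matrix.one_mul]
  have e2 : KK s s' c d * (V ⊗ₖ (1 : Matrix ε ε ℂ)) =
      ((s : ℝ) : ℂ) • ((c * V) ⊗ₖ (1 : Matrix ε ε ℂ)) + ((s' : ℝ) : ℂ) • (V ⊗ₖ d) := by
    rw [KK, Matrix.add_mul, Matrix.smul_mul, Matrix.smul_mul, ← mul_kronecker_mul,
      ← mul_kronecker_mul, Matrix.mul_one, Matrix.mul_one, Matrix.one_mul]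
  have e3 : ((s : ℝ) : ℂ) • ((c * V - V * c) ⊗ₖ (1 : Matrix ε ε ℂ)) =
      KK s s' c d * (V ⊗ₖ (1 : Matrix ε ε ℂ)) - (V ⊗ₖ (1 : Matrix ε ε ℂ)) * KK s s' c d := by
    rw [e1, e2, sub_kron, smul_sub]
    abel
  have e4 : (RR s s' a c d W)ᴴ = Wᴴ * KK s s' c d - (a ⊗ₖ (1 : Matrix ι' ι' ℂ)) * Wᴴ := by
    rw [RR, conjTranspose_sub, conjTranspose_mul, conjTranspose_mul, conjTranspose_conjTranspose,
      conjTranspose_conjTranspose]
  have e5 : ((s : ℝ) : ℂ) • (Wᴴ * ((c * V - V * c) ⊗ₖ (1 : Matrix ε ε ℂ)) * W) =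
      Wᴴ * (((s : ℝ) : ℂ) • ((c * V - V * c) ⊗ₖ (1 : Matrix ε ε ℂ))) * W := by
    rw [Matrix.mul_smul, Matrix.smul_mul]
  rw [e5, e3, e4, Matrix.mul_sub, Matrix.sub_mul, Matrix.sub_mul]
  have e6 : Wᴴ * ((V ⊗ₖ (1 : Matrix ε ε ℂ)) * KK s s' c d) * W =
      Wᴴ * (V ⊗ₖ (1 : Matrix ε ε ℂ)) * W * (a ⊗ₖ (1 : Matrix ι' ι' ℂ)) := by
    calc Wᴴ * ((V ⊗ₖ (1 : Matrix ε ε ℂ)) * KK s s' c d) * W
        = Wᴴ * (V ⊗ₖ (1 : Matrix ε ε ℂ)) * (KK s s' c d * W) := by simp only [Matrix.mul_assoc]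
      _ = _ := by rw [hK]; simp only [Matrix.mul_assoc]
  rw [e6]
  simp only [Matrix.mul_assoc]
  abel

/-- the size of the defect -/
theorem RR_sq (h1 : s ^ 2 + s' ^ 2 = 1) (hW : Wᴴ * W = 1)
    (hK : KK s s' c d * W = W * (a ⊗ₖ (1 : Matrix ι' ι' ℂ)))
    (hc : (tp c).PosSemidef) (hd : (tp d).PosSemidef) :
    ((tp a ⊗ₖ (1 : Matrix ι' ι' ℂ)) - (RR s s' a c d W)ᴴ * RR s s' a c d W).PosSemidef := by
  set a' : Matrix (ι × ι') (ι × ι') ℂ := a ⊗ₖ (1 : Matrix ι' ι' ℂ) with ha'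
  set K := KK s s' c d with hKdef
  have hs : ((s : ℝ) : ℂ) * s + ((s' : ℝ) : ℂ) * s' = 1 := by
    have : ((s ^ 2 + s' ^ 2 : ℝ) : ℂ) = 1 := by rw [h1]; simp
    push_cast at this
    linear_combination this
  -- the commutator of K
  have e1 : Kᴴ * K + 1 - K * Kᴴ = (((s : ℝ) : ℂ) * s) • (tp c ⊗ₖ (1 : Matrix ε ε ℂ)) +
      (((s' : ℝ) : ℂ) * s') • ((1 : Matrix κ κ ℂ) ⊗ₖ tp d) := by
    have f1 : Kᴴ = ((s : ℝ) : ℂ) • (cᴴ ⊗ₖ (1 : Matrix ε ε ℂ)) +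
        ((s' : ℝ) : ℂ) • ((1 : Matrix κ κ ℂ) ⊗ₖ dᴴ) := by
      rw [hKdef, KK, conjTranspose_add, conjTranspose_smul, conjTranspose_smul,
        conjTranspose_kronecker, conjTranspose_kronecker, conjTranspose_one, conjTranspose_one]
      simp
    have f2 : Kᴴ * K = (((s : ℝ) : ℂ) * s) • ((cᴴ * c) ⊗ₖ (1 : Matrix ε ε ℂ)) +
        (((s : ℝ) : ℂ) * s') • (cᴴ ⊗ₖ d) + ((((s : ℝ) : ℂ) * s') • (c ⊗ₖ dᴴ) +
        (((s' : ℝ) : ℂ) * s') • ((1 : Matrix κ κ ℂ) ⊗ₖ (dᴴ * d))) := by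
      rw [f1, hKdef, KK]
      simp only [Matrix.add_mul, Matrix.mul_add, Matrix.smul_mul, Matrix.mul_smul, smul_add,
        smul_smul, ← mul_kronecker_mul, Matrix.one_mul, Matrix.mul_one]
      rw [mul_comm ((s' : ℝ) : ℂ) ((s : ℝ) : ℂ)]
      abel
    have f3 : K * Kᴴ = (((s : ℝ) : ℂ) * s) • ((c * cᴴ) ⊗ₖ (1 : Matrix ε ε ℂ)) +
        (((s : ℝ) : ℂ) * s') • (cᴴ ⊗ₖ d) + ((((s : ℝ) : ℂ) * s') • (c ⊗ₖ dᴴ) +
        (((s' : ℝ) : ℂ) * s') • ((1 : Matrix κ κ ℂ) ⊗ₖ (d * dᴴ))) := by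
      rw [f1, hKdef, KK]
      simp only [Matrix.add_mul, Matrix.mul_add, Matrix.smul_mul, Matrix.mul_smul, smul_add,
        smul_smul, ← mul_kronecker_mul, Matrix.one_mul, Matrix.mul_one]
      rw [mul_comm ((s' : ℝ) : ℂ) ((s : ℝ) : ℂ)]
    have f4 : (1 : Matrix (κ × ε) (κ × ε) ℂ) = (((s : ℝ) : ℂ) * s) • (1 : Matrix (κ × ε) (κ × ε) ℂ)
        + (((s' : ℝ) : ℂ) * s') • (1 : Matrix (κ × ε) (κ × ε) ℂ) := by
      rw [← add_smul, hs, one_smul]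
    rw [f2, f3, f4]
    have f5 : (1 : Matrix (κ × ε) (κ × ε) ℂ) = (1 : Matrix κ κ ℂ) ⊗ₖ (1 : Matrix ε ε ℂ) :=
      one_kronecker_one.symm
    rw [f5]
    unfold tp
    simp only [add_kronecker, sub_kron, kronecker_add, kron_sub, smul_add, smul_sub]
    abel
  have e2 : Wᴴ * K * W = a' := by
    rw [Matrix.mul_assoc, hK, ← Matrix.mul_assoc, hW, Matrix.one_mul]
  have e3 : Wᴴ * Kᴴ * W = a'ᴴ := by
    rw [← e2, conjTranspose_mul, conjTranspose_mul, conjTranspose_conjTranspose, Matrix.mul_assoc]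
  have e4 : Wᴴ * (Kᴴ * K) * W = a'ᴴ * a' := by
    calc Wᴴ * (Kᴴ * K) * W = (Wᴴ * Kᴴ) * (K * W) := by simp only [Matrix.mul_assoc]
      _ = (Wᴴ * Kᴴ * W) * a' := by rw [hK]; simp only [Matrix.mul_assoc]
      _ = _ := by rw [e3]
  have e5 : (RR s s' a c d W)ᴴ * RR s s' a c d W = Wᴴ * (K * Kᴴ) * W - a' * a'ᴴ := by
    have g1 : (RR s s' a c d W)ᴴ = Wᴴ * K - a' * Wᴴ := by
      rw [RR, conjTranspose_sub, conjTranspose_mul, conjTranspose_mul,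
        conjTranspose_conjTranspose, conjTranspose_conjTranspose]
    rw [g1, RR, Matrix.sub_mul, Matrix.mul_sub, Matrix.mul_sub]
    have g2 : Wᴴ * K * (W * a'ᴴ) = a' * a'ᴴ := by rw [← Matrix.mul_assoc, e2]
    have g3 : a' * Wᴴ * (Kᴴ * W) = a' * a'ᴴ := by
      rw [← e3]; simp only [Matrix.mul_assoc]
    have g4 : a' * Wᴴ * (W * a'ᴴ) = a' * a'ᴴ := by
      calc a' * Wᴴ * (W * a'ᴴ) = a' * (Wᴴ * W) * a'ᴴ := by simp only [Matrix.mul_assoc]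
        _ = _ := by rw [hW, Matrix.mul_one]
    rw [← hKdef, ← ha', g2, g3, g4]
    have g5 : Wᴴ * K * (Kᴴ * W) = Wᴴ * (K * Kᴴ) * W := by simp only [Matrix.mul_assoc]
    rw [g5]
    abel
  have e6 : (tp a ⊗ₖ (1 : Matrix ι' ι' ℂ)) = a'ᴴ * a' + 1 - a' * a'ᴴ := by
    rw [ha', conjTranspose_kronecker, conjTranspose_one, ← mul_kronecker_mul, ← mul_kronecker_mul,
      Matrix.one_mul]
    unfold tp
    rw [sub_kron, add_kronecker, one_kronecker_one]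
  have e7 : (tp a ⊗ₖ (1 : Matrix ι' ι' ℂ)) - (RR s s' a c d W)ᴴ * RR s s' a c d W =
      Wᴴ * (Kᴴ * K + 1 - K * Kᴴ) * W := by
    rw [e6, e5, Matrix.mul_sub, Matrix.sub_mul, Matrix.mul_add, Matrix.add_mul, e4,
      Matrix.mul_one, hW]
    abel
  rw [e7, e1]
  refine PosSemidef.conjTranspose_mul_mul_same ?_ W
  have hp : ∀ x : ℝ, (0 : ℂ) ≤ ((x : ℝ) : ℂ) * x := by
    intro x
    rw [← Complex.ofReal_mul]
    exact_mod_cast mul_self_nonneg x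
  exact ((hc.kronecker PosSemidef.one).smul (hp s)).add ((PosSemidef.one.kronecker hd).smul (hp s'))

theorem RR_a (h : ((tp a ⊗ₖ (1 : Matrix ι' ι' ℂ)) -
      (RR s s' a c d W)ᴴ * RR s s' a c d W).PosSemidef) (ha : tp a * a = 0) :
    RR s s' a c d W * (a ⊗ₖ (1 : Matrix ι' ι' ℂ)) = 0 := by
  have h1 := trace_mono_conj h (a ⊗ₖ (1 : Matrix ι' ι' ℂ))
  have e1 : (a ⊗ₖ (1 : Matrix ι' ι' ℂ))ᴴ * (tp a ⊗ₖ (1 : Matrix ι' ι' ℂ)) *
      (a ⊗ₖ (1 : Matrix ι' ι' ℂ)) = 0 := by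
    rw [Matrix.mul_assoc, ← mul_kronecker_mul, ha, zero_kronecker, Matrix.mul_zero]
  have e2 : (a ⊗ₖ (1 : Matrix ι' ι' ℂ))ᴴ * ((RR s s' a c d W)ᴴ * RR s s' a c d W) *
      (a ⊗ₖ (1 : Matrix ι' ι' ℂ)) = (RR s s' a c d W * (a ⊗ₖ (1 : Matrix ι' ι' ℂ)))ᴴ *
        (RR s s' a c d W * (a ⊗ₖ (1 : Matrix ι' ι' ℂ))) := by
    rw [conjTranspose_mul]
    simp only [Matrix.mul_assoc]
  rw [e1, e2, Matrix.trace_zero, Complex.zero_re] at h1
  have h2 : (0 : ℂ) ≤ ((RR s s' a c d W * (a ⊗ₖ (1 : Matrix ι' ι' ℂ)))ᴴ *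
        (RR s s' a c d W * (a ⊗ₖ (1 : Matrix ι' ι' ℂ)))).trace :=
    (posSemidef_conjTranspose_mul_self _).trace_nonneg
  have h3 := Complex.le_def.1 h2
  have h4 : ((RR s s' a c d W * (a ⊗ₖ (1 : Matrix ι' ι' ℂ)))ᴴ *
        (RR s s' a c d W * (a ⊗ₖ (1 : Matrix ι' ι' ℂ)))).trace = 0 := by
    apply Complex.ext
    · rw [Complex.zero_re]
      have := h3.1
      rw [Complex.zero_re] at this
      linarith
    · have := h3.2
      rw [Complex.zero_im] at this ⊢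
      exact this.symm
  exact trace_conjTranspose_mul_self_eq_zero_iff.1 h4

/-- the defect term, bounded -/
theorem defect_bound {A : Matrix ι ι ℂ} {B : Matrix ι' ι' ℂ} (hA : A.PosSemidef)
    (hB : B.PosSemidef) (hB1 : B.trace = 1) (hW : Wᴴ * W = 1) {V : Matrix κ κ ℂ} {L : ℝ}
    (hL : 0 ≤ L) (hV : V.IsHermitian)
    (hVL : (((L ^ 2 : ℝ) : ℂ) • (1 : Matrix κ κ ℂ) - V * V).PosSemidef)
    (hR : ((tp a ⊗ₖ (1 : Matrix ι' ι' ℂ)) - (RR s s' a c d W)ᴴ * RR s s' a c d W).PosSemidef)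
    (ha : tp a * a = 0) {N : ℝ} (hN : 0 ≤ N) :
    ‖(((Xl N a A)ᴴ ⊗ₖ B) * ((RR s s' a c d W)ᴴ * ((V ⊗ₖ (1 : Matrix ε ε ℂ)) * W))).trace‖ ≤
      N * L * (Real.sqrt (A * (a * aᴴ)).trace.re * Real.sqrt (A * tp a).trace.re) := by
  set R := RR s s' a c d W with hRdef
  obtain ⟨P, hP⟩ := exists_fac hA
  obtain ⟨Q, hQ⟩ := exists_fac hB
  have hAh : Aᴴ = A := hA.isHermitian
  have hBh : Bᴴ = B := hB.isHermitian
  have hRa := RR_a (s := s) (s' := s') (c := c) (d := d) (W := W) hR ha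
  rw [← hRdef] at hRa
  set V' : Matrix (κ × ε) (κ × ε) ℂ := V ⊗ₖ (1 : Matrix ε ε ℂ) with hV'
  -- the first part is killed by the defect
  have e1 : ((Xl N a A)ᴴ ⊗ₖ B) * (Rᴴ * (V' * W)) =
      -(((N : ℝ) : ℂ) • (((P * a) ⊗ₖ Q)ᴴ * ((P ⊗ₖ Q) * (Rᴴ * (V' * W))))) := by
    have f1 : R * (Xl N a A ⊗ₖ B) = -(((N : ℝ) : ℂ) • (R * ((A * a) ⊗ₖ B))) := by
      have g1 : (a * A) ⊗ₖ B = (a ⊗ₖ (1 : Matrix ι' ι' ℂ)) * (A ⊗ₖ B) := by
        rw [← mul_kronecker_mul, Matrix.one_mul]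
      rw [Xl, sub_kron, smul_kronecker, smul_kronecker, Matrix.mul_sub, Matrix.mul_smul,
        Matrix.mul_smul, g1, ← Matrix.mul_assoc R, hRa, Matrix.zero_mul, smul_zero, zero_sub]
    have f2 : ((Xl N a A)ᴴ ⊗ₖ B) * Rᴴ = (R * (Xl N a A ⊗ₖ B))ᴴ := by
      rw [conjTranspose_mul, conjTranspose_kronecker, hBh]
    have f3 : (A * a) ⊗ₖ B = (P ⊗ₖ Q)ᴴ * ((P * a) ⊗ₖ Q) := by
      rw [conjTranspose_kronecker, ← mul_kronecker_mul, ← Matrix.mul_assoc, ← hP, ← hQ]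
    rw [← Matrix.mul_assoc, f2, f1, f3, conjTranspose_neg, conjTranspose_smul, conjTranspose_mul,
      conjTranspose_mul, conjTranspose_conjTranspose, Matrix.neg_mul, Matrix.smul_mul]
    simp only [Matrix.mul_assoc, Complex.star_def, Complex.conj_ofReal]
  rw [e1, Matrix.trace_neg, norm_neg, Matrix.trace_smul, norm_smul, Complex.norm_real,
    Real.norm_eq_abs, abs_of_nonneg hN]
  -- cyclicity and Cauchy-Schwarz
  have e2 : (((P * a) ⊗ₖ Q)ᴴ * ((P ⊗ₖ Q) * (Rᴴ * (V' * W)))).trace =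
      ((R * (P ⊗ₖ Q)ᴴ)ᴴ * (V' * W * ((P * a) ⊗ₖ Q)ᴴ)).trace := by
    rw [Matrix.trace_mul_comm, conjTranspose_mul, conjTranspose_conjTranspose]
    simp only [Matrix.mul_assoc]
  have e3 := cs_trace (R * (P ⊗ₖ Q)ᴴ) (V' * W * ((P * a) ⊗ₖ Q)ᴴ)
  have hQt : (Q * Qᴴ).trace = 1 := by rw [Matrix.trace_mul_comm, ← hQ, hB1]
  have e4 : ((R * (P ⊗ₖ Q)ᴴ)ᴴ * (R * (P ⊗ₖ Q)ᴴ)).trace.re ≤ (A * tp a).trace.re := by
    have g1 := trace_mono_conj hR (P ⊗ₖ Q)ᴴ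
    have g2 : (R * (P ⊗ₖ Q)ᴴ)ᴴ * (R * (P ⊗ₖ Q)ᴴ) =
        ((P ⊗ₖ Q)ᴴ)ᴴ * (Rᴴ * R) * (P ⊗ₖ Q)ᴴ := by
      rw [conjTranspose_mul]; simp only [Matrix.mul_assoc]
    have g3 : (((P ⊗ₖ Q)ᴴ)ᴴ * (tp a ⊗ₖ (1 : Matrix ι' ι' ℂ)) * (P ⊗ₖ Q)ᴴ).trace =
        (A * tp a).trace := by
      rw [conjTranspose_conjTranspose, conjTranspose_kronecker, ← mul_kronecker_mul,
        ← mul_kronecker_mul, Matrix.mul_one, trace_kronecker, hQt, mul_one,
        Matrix.mul_assoc, Matrix.trace_mul_comm, Matrix.mul_assoc, ← hP, Matrix.trace_mul_comm]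
    rw [g2, ← g3]
    exact g1
  have e5 : ((V' * W * ((P * a) ⊗ₖ Q)ᴴ)ᴴ * (V' * W * ((P * a) ⊗ₖ Q)ᴴ)).trace.re ≤
      L ^ 2 * (A * (a * aᴴ)).trace.re := by
    have g0 : ((((L ^ 2 : ℝ) : ℂ) • (1 : Matrix (κ × ε) (κ × ε) ℂ)) - V' * V').PosSemidef := by
      have : ((((L ^ 2 : ℝ) : ℂ) • (1 : Matrix (κ × ε) (κ × ε) ℂ)) - V' * V') =
          ((((L ^ 2 : ℝ) : ℂ) • (1 : Matrix κ κ ℂ) - V * V) ⊗ₖ (1 : Matrix ε ε ℂ)) := by
        rw [sub_kron, smul_kronecker, one_kronecker_one, hV', ← mul_kronecker_mul,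
          Matrix.mul_one]
      rw [this]
      exact hVL.kronecker PosSemidef.one
    have g1 := trace_mono_conj g0 (W * ((P * a) ⊗ₖ Q)ᴴ)
    have g2 : (V' * W * ((P * a) ⊗ₖ Q)ᴴ)ᴴ * (V' * W * ((P * a) ⊗ₖ Q)ᴴ) =
        (W * ((P * a) ⊗ₖ Q)ᴴ)ᴴ * (V' * V') * (W * ((P * a) ⊗ₖ Q)ᴴ) := by
      have hVh : V'ᴴ = V' := by
        rw [hV', conjTranspose_kronecker, conjTranspose_one, hV.eq]
      rw [Matrix.mul_assoc V', conjTranspose_mul V', hVh]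
      simp only [Matrix.mul_assoc]
    have g3 : ((W * ((P * a) ⊗ₖ Q)ᴴ)ᴴ * (((L ^ 2 : ℝ) : ℂ) • (1 : Matrix (κ × ε) (κ × ε) ℂ)) *
        (W * ((P * a) ⊗ₖ Q)ᴴ)).trace = ((L ^ 2 : ℝ) : ℂ) * (A * (a * aᴴ)).trace := by
      rw [Matrix.mul_smul, Matrix.mul_one, Matrix.smul_mul, Matrix.trace_smul, smul_eq_mul]
      congr 1
      have k1 : (W * ((P * a) ⊗ₖ Q)ᴴ)ᴴ * (W * ((P * a) ⊗ₖ Q)ᴴ) =
          ((P * a) ⊗ₖ Q) * ((P * a) ⊗ₖ Q)ᴴ := by
        rw [conjTranspose_mul, conjTranspose_conjTranspose]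
        calc (P * a) ⊗ₖ Q * Wᴴ * (W * ((P * a) ⊗ₖ Q)ᴴ)
            = (P * a) ⊗ₖ Q * (Wᴴ * W) * ((P * a) ⊗ₖ Q)ᴴ := by simp only [Matrix.mul_assoc]
          _ = _ := by rw [hW, Matrix.mul_one]
      rw [k1, conjTranspose_kronecker, ← mul_kronecker_mul, trace_kronecker, hQt, mul_one,
        conjTranspose_mul]
      calc (P * a * (aᴴ * Pᴴ)).trace = (P * (a * aᴴ * Pᴴ)).trace := by
            simp only [Matrix.mul_assoc]
        _ = ((a * aᴴ) * (Pᴴ * P)).trace := by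
            rw [Matrix.trace_mul_comm]; simp only [Matrix.mul_assoc]
        _ = _ := by rw [← hP, Matrix.trace_mul_comm]
    rw [g3, Complex.re_ofReal_mul, ← g2] at g1
    exact g1
  rw [e2]
  have e6 : Real.sqrt ((V' * W * ((P * a) ⊗ₖ Q)ᴴ)ᴴ * (V' * W * ((P * a) ⊗ₖ Q)ᴴ)).trace.re ≤
      L * Real.sqrt (A * (a * aᴴ)).trace.re := by
    refine (Real.sqrt_le_sqrt e5).trans (le_of_eq ?_)
    rw [Real.sqrt_mul (sq_nonneg L), Real.sqrt_sq hL]
  calc N * ‖((R * (P ⊗ₖ Q)ᴴ)ᴴ * (V' * W * ((P * a) ⊗ₖ Q)ᴴ)).trace‖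
      ≤ N * (Real.sqrt (A * tp a).trace.re * (L * Real.sqrt (A * (a * aᴴ)).trace.re)) := by
        refine mul_le_mul_of_nonneg_left (e3.trans ?_) hN
        exact mul_le_mul (Real.sqrt_le_sqrt e4) e6 (Real.sqrt_nonneg _) (Real.sqrt_nonneg _)
    _ = _ := by ring

end defect

/-! ### the truncated flow -/

theorem lind_trace {A Q : Matrix ι ι ℂ} (hA : A.IsHermitian) (hQ : Q.IsHermitian) (N : ℝ)
    (a : J → Matrix ι ι ℂ) :
    (Q * lind N a A).trace.re = -∑ j, ((Xl N (a j) A)ᴴ * (a j * Q - Q * a j)).trace.re := by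
  have h : ∀ j, (Q * (((N + 1 : ℝ) : ℂ) • (a j * A * (a j)ᴴ -
      (1 / 2 : ℂ) • ((a j)ᴴ * a j * A + A * ((a j)ᴴ * a j))) +
    ((N : ℝ) : ℂ) • ((a j)ᴴ * A * a j -
      (1 / 2 : ℂ) • (a j * (a j)ᴴ * A + A * (a j * (a j)ᴴ))))).trace.re =
      -((Xl N (a j) A)ᴴ * (a j * Q - Q * a j)).trace.re := by
    intro j
    set x := a j with hx
    have hAh : Aᴴ = A := hA
    have hQh : Qᴴ = Q := hQ
    -- the elementary traces
    have t1 : (Q * (x * A * xᴴ)).trace = (A * xᴴ * (Q * x)).trace := by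
      calc (Q * (x * A * xᴴ)).trace = ((Q * x) * (A * xᴴ)).trace := by
            simp only [Matrix.mul_assoc]
        _ = _ := Matrix.trace_mul_comm _ _
    have t2 : (Q * (A * (xᴴ * x))).trace = (A * xᴴ * (x * Q)).trace := by
      rw [Matrix.trace_mul_comm]
      simp only [Matrix.mul_assoc]
    have t3 : (Q * (xᴴ * x * A)).trace = star (A * xᴴ * (x * Q)).trace := by
      rw [← trace_conjTranspose]
      simp only [conjTranspose_mul, conjTranspose_conjTranspose, hAh, hQh, Matrix.mul_assoc]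
    have t4 : (Q * (xᴴ * A * x)).trace = (xᴴ * A * (x * Q)).trace := by
      rw [Matrix.trace_mul_comm]
      simp only [Matrix.mul_assoc]
    have t5 : (Q * (x * xᴴ * A)).trace = (xᴴ * A * (Q * x)).trace := by
      calc (Q * (x * xᴴ * A)).trace = ((Q * x) * (xᴴ * A)).trace := by
            simp only [Matrix.mul_assoc]
        _ = _ := Matrix.trace_mul_comm _ _
    have t6 : (Q * (A * (x * xᴴ))).trace = star (xᴴ * A * (Q * x)).trace := by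
      rw [← t5, ← trace_conjTranspose]
      simp only [conjTranspose_mul, conjTranspose_conjTranspose, hAh, hQh, Matrix.mul_assoc]
      rw [Matrix.trace_mul_comm]
      simp only [Matrix.mul_assoc]
    have e1 : (Xl N x A)ᴴ = ((N + 1 : ℝ) : ℂ) • (A * xᴴ) - ((N : ℝ) : ℂ) • (xᴴ * A) := by
      rw [Xl, conjTranspose_sub, conjTranspose_smul, conjTranspose_smul, conjTranspose_mul,
        conjTranspose_mul, hAh]
      simp only [Complex.star_def, Complex.conj_ofReal]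
    rw [e1]
    simp only [Matrix.mul_add, Matrix.mul_sub, Matrix.sub_mul, Matrix.mul_smul, Matrix.smul_mul,
      Matrix.trace_add, Matrix.trace_sub, Matrix.trace_smul, smul_eq_mul, t1, t2, t3, t4, t5, t6]
    generalize (A * xᴴ * (Q * x)).trace = p1
    generalize (A * xᴴ * (x * Q)).trace = p2
    generalize (xᴴ * A * (x * Q)).trace = p3
    generalize (xᴴ * A * (Q * x)).trace = p4
    simp only [Complex.add_re, Complex.sub_re, Complex.re_ofReal_mul, Complex.star_def,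
      Complex.mul_re, Complex.conj_re, Complex.conj_im, Complex.ofReal_re, Complex.ofReal_im,
      Complex.add_im, Complex.sub_im]
    norm_num
    ring
  rw [lind, Finset.mul_sum, Matrix.trace_sum, Complex.re_sum, ← Finset.sum_neg_distrib]
  exact Finset.sum_congr rfl fun j _ => h j

theorem bb_pos {N : ℝ} (hN : 0 < N) : 0 < bb N :=
  Real.log_pos (by rw [lt_add_iff_pos_right]; positivity)

/-- **package FIRST** -/
theorem thm_FIRST : S_FIRST := by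
  intro ι ι' κ ε J _ _ _ _ _ _ _ _ _ s t s' t' a b c d W hS A B C hA hB hC hA1 hB1 N bM δ L l Q
    hN hbM hδ hL hQ hLC hEL
  have hA0 := hA.posSemidef
  have hB0 := hB.posSemidef
  have hAh : A.IsHermitian := hA.isHermitian
  have hCh : C.IsHermitian := hC.isHermitian
  set V : Matrix κ κ ℂ := Lg C with hVdef
  have hVh : V.IsHermitian := by
    have : IsSelfAdjoint (cfc Real.log C) := cfc_predicate _ _
    exact this
  have hb0 : 0 < bb N := bb_pos hN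
  have hK : ∀ j, KK s s' (c j) (d j) * W = W * (a j ⊗ₖ (1 : Matrix ι' ι' ℂ)) := fun j =>
    KK_W hS.col1 hS.cols (hS.hc j) (hS.hd j)
  have hR : ∀ j, ((tp (a j) ⊗ₖ (1 : Matrix ι' ι' ℂ)) -
      (RR s s' (a j) (c j) (d j) W)ᴴ * RR s s' (a j) (c j) (d j) W).PosSemidef := fun j =>
    RR_sq hS.col1 hS.iso (hK j) (hS.lc.tp_pos j) (hS.ld.tp_pos j)
  -- the defect terms
  set T : J → ℂ := fun j => (((Xl N (a j) A)ᴴ ⊗ₖ B) * ((RR s s' (a j) (c j) (d j) W)ᴴ *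
    ((V ⊗ₖ (1 : Matrix ε ε ℂ)) * W))).trace with hT
  have hTb : ∀ j, ‖T j‖ ≤ N * L * (Real.sqrt (A * (a j * (a j)ᴴ)).trace.re *
      Real.sqrt (A * tp (a j)).trace.re) := fun j =>
    defect_bound hA0 hB0 hB1 hS.iso hL hVh hLC (hR j) (hS.la.tp_mul j) hN.le
  -- the trace of `X`
  have hXtr : ∀ j, (Xl N (a j) A)ᴴ.trace = star (A * a j).trace := by
    intro j
    rw [trace_conjTranspose, Xl, Matrix.trace_sub, Matrix.trace_smul, Matrix.trace_smul,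
      Matrix.trace_mul_comm (a j) A, ← sub_smul]
    congr 1
    push_cast
    rw [add_sub_cancel_left, one_smul]
  -- the dual channel on the lowering matrix
  have e1 : ∀ j, ((Xl N (a j) A)ᴴ * EA W B (c j)).trace =
      ((s : ℝ) : ℂ) * ((Xl N (a j) A)ᴴ * a j).trace +
        ((t : ℝ) : ℂ) * (star (A * a j).trace * (B * b j).trace) := by
    intro j
    rw [trEA, Matrix.mul_assoc Wᴴ, hS.hc j, ← Matrix.mul_assoc Wᴴ, hS.iso, Matrix.one_mul,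
      Matrix.mul_add, Matrix.mul_smul, Matrix.mul_smul, ← mul_kronecker_mul, ← mul_kronecker_mul,
      Matrix.mul_one, Matrix.mul_one, Matrix.trace_add, Matrix.trace_smul, Matrix.trace_smul,
      trace_kronecker, trace_kronecker, hB1, mul_one, hXtr, smul_eq_mul, smul_eq_mul]
  -- the dual channel on the commutator
  have e2 : ∀ j, ((s : ℝ) : ℂ) * ((Xl N (a j) A)ᴴ * EA W B (c j * V - V * c j)).trace =
      ((Xl N (a j) A)ᴴ * (a j * EA W B V - EA W B V * a j)).trace + T j := by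
    intro j
    have f1 := congrArg (fun M => (((Xl N (a j) A)ᴴ ⊗ₖ B) * M).trace) (cov_id (hK j) V)
    simp only [Matrix.mul_smul, Matrix.trace_smul, smul_eq_mul, Matrix.mul_add, Matrix.mul_sub,
      Matrix.trace_add, Matrix.trace_sub] at f1
    rw [← trEA] at f1
    rw [f1, Matrix.mul_sub, Matrix.trace_sub]
    have g1 : (((Xl N (a j) A)ᴴ ⊗ₖ B) * ((a j ⊗ₖ (1 : Matrix ι' ι' ℂ)) *
        (Wᴴ * (V ⊗ₖ (1 : Matrix ε ε ℂ)) * W))).trace =
        ((Xl N (a j) A)ᴴ * (a j * EA W B V)).trace := by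
      rw [← Matrix.mul_assoc, ← mul_kronecker_mul, Matrix.mul_one, ← trEA, Matrix.mul_assoc]
    have g2 : (((Xl N (a j) A)ᴴ ⊗ₖ B) * ((Wᴴ * (V ⊗ₖ (1 : Matrix ε ε ℂ)) * W) *
        (a j ⊗ₖ (1 : Matrix ι' ι' ℂ)))).trace =
        ((Xl N (a j) A)ᴴ * (EA W B V * a j)).trace := by
      rw [← Matrix.mul_assoc, Matrix.trace_mul_comm, ← Matrix.mul_assoc, ← mul_kronecker_mul,
        Matrix.one_mul, ← trEA, Matrix.mul_assoc, Matrix.trace_mul_comm]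
      simp only [Matrix.mul_assoc]
    rw [g1, g2]
  -- linearity of EA
  have e3 : ∀ j, ((Xl N (a j) A)ᴴ * EA W B (ladH bM (c j) C)).trace =
      ((Xl N (a j) A)ᴴ * EA W B (c j)).trace + ((1 / bM : ℝ) : ℂ) *
        ((Xl N (a j) A)ᴴ * EA W B (c j * V - V * c j)).trace := by
    intro j
    rw [trEA, trEA, trEA, ladH, ← hVdef, add_kronecker, smul_kronecker, Matrix.mul_add,
      Matrix.add_mul, Matrix.mul_add, Matrix.trace_add, Matrix.mul_smul, Matrix.smul_mul,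
      Matrix.mul_smul, Matrix.trace_smul, smul_eq_mul]
  -- the Euler-Lagrange equation, commuted
  have e4 : ∀ j, (((1 + δ) * s ^ 2 : ℝ) : ℂ) • ladH (bb N) (a j) A =
      ((s ^ 2 : ℝ) : ℂ) • a j + ((1 / bM : ℝ) : ℂ) • (a j * EA W B V - EA W B V * a j) -
        (a j * Q - Q * a j) := by
    intro j
    have f1 : (((1 + δ) * s ^ 2 : ℝ) : ℂ) • ladH (bb N) (a j) A =
        (((1 + δ) * s ^ 2 : ℝ) : ℂ) • a j +
          (a j * ((((1 + δ) * s ^ 2 / bb N : ℝ) : ℂ) • Lg A) -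
            ((((1 + δ) * s ^ 2 / bb N : ℝ) : ℂ) • Lg A) * a j) := by
      rw [ladH, smul_add, smul_smul, Matrix.mul_smul, Matrix.smul_mul, ← smul_sub]
      congr 2
      push_cast
      ring
    have f2 := hS.la.comm_nm j
    rw [f1, hEL]
    have f3 : a j * (((1 / bM : ℝ) : ℂ) • EA W B V - (((δ * s ^ 2 : ℝ) : ℂ) • nm a + Q) +
          ((l : ℝ) : ℂ) • 1) -
        (((1 / bM : ℝ) : ℂ) • EA W B V - (((δ * s ^ 2 : ℝ) : ℂ) • nm a + Q) +
          ((l : ℝ) : ℂ) • 1) * a j =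
        ((1 / bM : ℝ) : ℂ) • (a j * EA W B V - EA W B V * a j) -
          ((δ * s ^ 2 : ℝ) : ℂ) • (a j * nm a - nm a * a j) - (a j * Q - Q * a j) := by
      simp only [Matrix.mul_add, Matrix.add_mul, Matrix.mul_sub, Matrix.sub_mul, Matrix.mul_smul,
        Matrix.smul_mul, Matrix.mul_one, Matrix.one_mul, smul_sub]
      abel
    rw [f3, f2]
    have f4 : (((1 + δ) * s ^ 2 : ℝ) : ℂ) • a j =
        ((s ^ 2 : ℝ) : ℂ) • a j + ((δ * s ^ 2 : ℝ) : ℂ) • a j := by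
      rw [← add_smul]
      congr 1
      push_cast
      ring
    rw [f4]
    abel
  -- one mode
  have e5 : ∀ j, (1 + δ) * s ^ 2 * ((ladH (bb N) (a j) A)ᴴ * Xl N (a j) A).trace.re =
      s * ((Xl N (a j) A)ᴴ * EA W B (ladH bM (c j) C)).trace.re -
        s * t * (star (A * a j).trace * (B * b j).trace).re - (1 / bM) * (T j).re -
        ((Xl N (a j) A)ᴴ * (a j * Q - Q * a j)).trace.re := by
    intro j
    have f1 : (1 + δ) * s ^ 2 * ((ladH (bb N) (a j) A)ᴴ * Xl N (a j) A).trace.re =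
        ((Xl N (a j) A)ᴴ * ((((1 + δ) * s ^ 2 : ℝ) : ℂ) • ladH (bb N) (a j) A)).trace.re := by
      rw [re_trace_conj, Matrix.mul_smul, Matrix.trace_smul, smul_eq_mul, Complex.re_ofReal_mul]
    have f2 : ((Xl N (a j) A)ᴴ * ((((1 + δ) * s ^ 2 : ℝ) : ℂ) • ladH (bb N) (a j) A)).trace.re =
        s ^ 2 * ((Xl N (a j) A)ᴴ * a j).trace.re +
          (1 / bM) * ((Xl N (a j) A)ᴴ * (a j * EA W B V - EA W B V * a j)).trace.re -
          ((Xl N (a j) A)ᴴ * (a j * Q - Q * a j)).trace.re := by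
      rw [e4 j, Matrix.mul_sub, Matrix.mul_add, Matrix.mul_smul, Matrix.mul_smul,
        Matrix.trace_sub, Matrix.trace_add, Matrix.trace_smul, Matrix.trace_smul, smul_eq_mul,
        smul_eq_mul, Complex.sub_re, Complex.add_re, Complex.re_ofReal_mul,
        Complex.re_ofReal_mul]
    have f3 : s * ((Xl N (a j) A)ᴴ * EA W B (ladH bM (c j) C)).trace.re =
        s ^ 2 * ((Xl N (a j) A)ᴴ * a j).trace.re +
          s * t * (star (A * a j).trace * (B * b j).trace).re +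
          (1 / bM) * (((Xl N (a j) A)ᴴ * (a j * EA W B V - EA W B V * a j)).trace.re +
            (T j).re) := by
      have g1 : ((s : ℝ) : ℂ) * ((Xl N (a j) A)ᴴ * EA W B (ladH bM (c j) C)).trace =
          ((s ^ 2 : ℝ) : ℂ) * ((Xl N (a j) A)ᴴ * a j).trace +
          ((s * t : ℝ) : ℂ) * (star (A * a j).trace * (B * b j).trace) +
          ((1 / bM : ℝ) : ℂ) *
            (((Xl N (a j) A)ᴴ * (a j * EA W B V - EA W B V * a j)).trace + T j) := by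
        rw [← e2 j, e3 j, e1 j]
        push_cast
        ring
      have g2 := congrArg Complex.re g1
      rw [Complex.re_ofReal_mul, Complex.add_re, Complex.add_re, Complex.re_ofReal_mul,
        Complex.re_ofReal_mul, Complex.re_ofReal_mul, Complex.add_re] at g2
      exact g2
    rw [f1, f2, f3]
    ring
  -- sum over the modes
  have e6 : (1 + δ) * s ^ 2 * GG N a A = ∑ j, (1 + δ) * s ^ 2 *
      ((ladH (bb N) (a j) A)ᴴ * Xl N (a j) A).trace.re := by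
    rw [GG, Finset.mul_sum]
  rw [e6, lind_trace hAh hQ N a]
  have e7 : s * ∑ j, ((Xl N (a j) A)ᴴ * EA W B (ladH bM (c j) C)).trace.re -
        s * t * ∑ j, (star (A * a j).trace * (B * b j).trace).re +
        -∑ j, ((Xl N (a j) A)ᴴ * (a j * Q - Q * a j)).trace.re +
        N * L / bM * ∑ j, Real.sqrt (A * (a j * (a j)ᴴ)).trace.re *
          Real.sqrt (A * tp (a j)).trace.re =
      ∑ j, (s * ((Xl N (a j) A)ᴴ * EA W B (ladH bM (c j) C)).trace.re -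
        s * t * (star (A * a j).trace * (B * b j).trace).re +
        -((Xl N (a j) A)ᴴ * (a j * Q - Q * a j)).trace.re +
        N * L / bM * (Real.sqrt (A * (a j * (a j)ᴴ)).trace.re *
          Real.sqrt (A * tp (a j)).trace.re)) := by
    simp only [Finset.mul_sum, Finset.sum_add_distrib, Finset.sum_sub_distrib,
      Finset.sum_neg_distrib]
  rw [e7]
  refine Finset.sum_le_sum fun j _ => ?_
  rw [e5 j]
  have f1 : -(T j).re ≤ ‖T j‖ := (neg_le_abs _).trans (Complex.abs_re_le_norm _)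
  have f2 : -((1 / bM) * (T j).re) ≤ N * L / bM * (Real.sqrt (A * (a j * (a j)ᴴ)).trace.re *
      Real.sqrt (A * tp (a j)).trace.re) := by
    have f3 : (1 / bM) * (-(T j).re) ≤ (1 / bM) * (N * L *
        (Real.sqrt (A * (a j * (a j)ᴴ)).trace.re * Real.sqrt (A * tp (a j)).trace.re)) :=
      mul_le_mul_of_nonneg_left (f1.trans (hTb j)) (by positivity)
    calc -((1 / bM) * (T j).re) = (1 / bM) * (-(T j).re) := by ring
      _ ≤ _ := f3
      _ = _ := by ring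
  linarith

end

end Vale.Agent.P369.H916

namespace Vale.Agent.P369.FD

theorem thm_FIRST : S_FIRST := Vale.Agent.P369.H916.thm_FIRST

end Vale.Agent.P369.FD
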