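import Vale.Agent.P369.H255.OI
import Vale.Agent.P369.H712.LogMean

/-!
P369 (helper916): the scalar bridge between the logarithmic mean and the functions `p₀`, `p₁`,
`G` of the operator inequality.
-/

namespace Vale.Agent.P369.H916

open Real MeasureTheory
open Vale.Agent.P369.H712 (lm lm_symm lm_self lm_of_ne lm_pos)
open Vale.Agent.P369.H255

noncomputable section

/-- `lm x y · (log x - log y) = x - y` -/
theorem lm_mul_log {x y : ℝ} (hx : 0 < x) (hy : 0 < y) :
    lm x y * (Real.log x - Real.log y) = x - y := by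
  by_cases h : x = y
  · subst h; simp
  · rw [lm_of_ne hx hy h]
    have h2 : Real.log x - Real.log y ≠ 0 := fun h3 =>
      h (Real.log_injOn_pos hx hy (sub_eq_zero.1 h3))
    field_simp

theorem lm_p0 {x y : ℝ} (hx : 0 < x) (hy : 0 < y) :
    lm x y * p0 (Real.log x - Real.log y) = y := by
  by_cases h : x = y
  · subst h; rw [sub_self, p0_zero, lm_self hx, mul_one]
  · have h2 : Real.log x - Real.log y ≠ 0 := fun h3 =>
      h (Real.log_injOn_pos hx hy (sub_eq_zero.1 h3))
    rw [p0_of_ne h2, Real.exp_sub, Real.exp_log hx, Real.exp_log hy, ← mul_div_assoc,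
      lm_mul_log hx hy]
    have h3 : x / y - 1 ≠ 0 := by
      rw [sub_ne_zero]
      intro h4
      exact h ((div_eq_one_iff_eq hy.ne').1 h4)
    rw [div_eq_iff h3]
    field_simp

theorem lm_p1 {x y : ℝ} (hx : 0 < x) (hy : 0 < y) :
    lm x y * p1 (Real.log x - Real.log y) = x := by
  rw [p1, mul_add, lm_p0 hx hy, lm_mul_log hx hy]
  ring

/-- `p₀(log(1+1/N)) = N log(1+1/N)` -/
theorem p0_b {N : ℝ} (hN : 0 < N) :
    p0 (Real.log ((N + 1) / N)) = N * Real.log ((N + 1) / N) := by
  have h1 : 1 < (N + 1) / N := by rw [lt_div_iff₀ hN]; linarith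
  have h2 : Real.log ((N + 1) / N) ≠ 0 := (Real.log_pos h1).ne'
  rw [p0_of_ne h2, Real.exp_log (by positivity)]
  field_simp
  ring

theorem p1_b {N : ℝ} (hN : 0 < N) :
    p1 (Real.log ((N + 1) / N)) = (N + 1) * Real.log ((N + 1) / N) := by
  rw [p1, p0_b hN]; ring

theorem rod_same {γ : ℝ → ℝ} (x : ℝ) : rod γ x x 1 = (x⁻¹ + (x * γ x)⁻¹)⁻¹ := by
  unfold rod
  have e : ∀ m : ℝ, rho γ (m * x + (1 - m) * x) 1 = x⁻¹ + (x * γ x)⁻¹ := by
    intro m
    have e1 : m * x + (1 - m) * x = x := by ring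
    rw [e1, rho, En, div_one]
  simp [e]

/-- the diagonal value of `G` -/
theorem Gf_self (b : ℝ) : Gf b b = Ff b := by
  have hF := Ff_pos b
  by_cases hb : b = 0
  · subst hb
    rw [Gf, qf_zero, Ff_zero]
    norm_num
  · have hF1 : Ff b ≠ 1 := by
      rw [← Ff_abs b, ← Ff_zero]
      intro h
      exact (abs_pos.2 hb).ne'
        (strictAntiOn_Ff.injOn (Set.mem_Ici.2 (abs_nonneg b)) (Set.mem_Ici.2 le_rfl) h)
    have hF2 : Ff b < 1 := lt_of_le_of_ne (Ff_le_one b) hF1
    have hq : 1 < qf b := by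
      rw [← qf_abs b]; exact qf_gt_one (abs_pos.2 hb)
    have hs := qf_sq_sub b
    rw [Gf, cf, rod_same, gam_of_ne hF1, Qx_Ff]
    have h1 : 0 < 1 - Ff b := by linarith
    have h2 : 0 < qf b - 1 := by linarith
    have h3 : 0 < qf b - Ff b := by linarith
    have e1 : ((Ff b)⁻¹ + (Ff b * ((qf b - 1) / (1 - Ff b)))⁻¹)⁻¹
        = Ff b * (qf b - 1) / (qf b - Ff b) := by
      rw [inv_eq_iff_eq_inv, inv_div]
      field_simp
      ring
    rw [e1]
    have e2 : 8 * (qf b + qf b + 2 * (Ff b * (qf b - 1) / (qf b - Ff b)))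
        = 16 * (qf b ^ 2 - Ff b) / (qf b - Ff b) := by
      field_simp
      ring
    rw [e2, hs]
    have h4 : 0 < b ^ 2 := by positivity
    field_simp
    ring

/-- the weight of the quadratic form of `G` -/
def jg (N x y : ℝ) : ℝ := Real.log ((N + 1) / N) * lm (N * x) ((N + 1) * y)

theorem log_b_pos {N : ℝ} (hN : 0 < N) : 0 < Real.log ((N + 1) / N) :=
  Real.log_pos (by rw [lt_div_iff₀ hN]; linarith)

theorem jg_pos {N x y : ℝ} (hN : 0 < N) (hx : 0 < x) (hy : 0 < y) : 0 < jg N x y :=
  mul_pos (log_b_pos hN) (lm_pos (by positivity) (by positivity))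

theorem log_sub_eq {N x y : ℝ} (hN : 0 < N) (hx : 0 < x) (hy : 0 < y) :
    Real.log ((N + 1) * y) - Real.log (N * x)
      = Real.log ((N + 1) / N) - (Real.log x - Real.log y) := by
  rw [Real.log_mul (by positivity) hy.ne', Real.log_mul hN.ne' hx.ne',
    Real.log_div (by positivity) hN.ne']
  ring

/-- **the bridge**: the logarithmic mean times `G` -/
theorem lm_Gf {N x y : ℝ} (hN : 0 < N) (hx : 0 < x) (hy : 0 < y) :
    lm x y * Gf (Real.log x - Real.log y) (Real.log ((N + 1) / N)) = jg N x y := by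
  set w := Real.log x - Real.log y with hw
  set b := Real.log ((N + 1) / N) with hb
  have hb0 : 0 < b := log_b_pos hN
  have hx' : 0 < N * x := by positivity
  have hy' : 0 < (N + 1) * y := by positivity
  have h1 : lm x y * w = x - y := lm_mul_log hx hy
  have h2 : lm x y * p0 w = y := lm_p0 hx hy
  by_cases h : w = b
  · have e1 : N * x = (N + 1) * y := by
      have h3 := log_sub_eq hN hx hy
      rw [← hw, ← hb, h, sub_self, sub_eq_zero] at h3
      exact (Real.log_injOn_pos hy' hx' h3).symm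
    rw [jg, ← hb, e1, lm_self hy', h, Gf_self, Ff, ← mul_assoc, ← h, h2, h, hb, p1_b hN]
    ring
  · have h3 : b - w ≠ 0 := sub_ne_zero.2 (Ne.symm h)
    have h4 := Gf_mul w b
    have h5 : Real.log ((N + 1) * y) - Real.log (N * x) = b - w := log_sub_eq hN hx hy
    have h6 : lm (N * x) ((N + 1) * y) * (b - w) = (N + 1) * y - N * x := by
      rw [lm_symm, ← h5]
      exact lm_mul_log hy' hx'
    have hp : p0 b = N * b := p0_b hN
    have key : lm x y * Gf w b * (b - w) = jg N x y * (b - w) := by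
      rw [mul_assoc, h4, jg, ← hb, mul_assoc, h6, hp]
      linear_combination b * h2 - (N * b) * h1
    exact mul_right_cancel₀ h3 key

theorem jg_self {N x : ℝ} (hN : 0 < N) (hx : 0 < x) : jg N x x = x := by
  have h1 := log_sub_eq hN hx hx
  rw [sub_self, sub_zero] at h1
  have h2 : lm (N * x) ((N + 1) * x) * (Real.log ((N + 1) * x) - Real.log (N * x))
      = (N + 1) * x - N * x := by
    rw [lm_symm]; exact lm_mul_log (by positivity) (by positivity)
  rw [h1] at h2
  rw [jg, mul_comm, h2]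
  ring

/-- `JG` applied to the entry factor of `H` gives the entry factor of `X` -/
theorem jg_mul {N x y : ℝ} (hN : 0 < N) (hx : 0 < x) (hy : 0 < y) :
    jg N x y * (1 + (Real.log ((N + 1) / N))⁻¹ * (Real.log y - Real.log x))
      = (N + 1) * y - N * x := by
  have hb0 : Real.log ((N + 1) / N) ≠ 0 := (log_b_pos hN).ne'
  have h1 := log_sub_eq hN hx hy
  have h2 : lm (N * x) ((N + 1) * y) * (Real.log ((N + 1) * y) - Real.log (N * x))
      = (N + 1) * y - N * x := by
    rw [lm_symm]; exact lm_mul_log (by positivity) (by positivity)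
  rw [h1] at h2
  rw [jg, ← h2]
  field_simp
  ring

/-- the Cauchy-Schwarz room: `G(w,b)² / (p₀+p₁)` is at most the room of the outer branches -/
theorem room_ge (w b : ℝ) :
    Gf w b ^ 2 / (p0 w + p1 w)
      ≤ p0 w * (1 / 2 - sf w b) ^ 2 + p1 w * (1 / 2 + sf w b) ^ 2 := by
  have h0 := p0_pos w
  have h1 := p1_pos w
  have hS : 0 < qf w + qf b + 2 * cf w b := by
    have := qf_pos w; have := qf_pos b; have := cf_pos w b; linarith
  have key : (qf b - qf w) * 4 * (qf w + qf b + 2 * cf w b) = (b - w) * (b + w) := by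
    rcases eq_or_ne (Ff w) (Ff b) with h | h
    · have habs : |w| = |b| := by
        rw [← Ff_abs w, ← Ff_abs b] at h
        exact strictAntiOn_Ff.injOn (Set.mem_Ici.2 (abs_nonneg w))
          (Set.mem_Ici.2 (abs_nonneg b)) h
      have h5 : qf b = qf w := by rw [← qf_abs w, ← qf_abs b, habs]
      have h6 : (b - w) * (b + w) = 0 := by
        have h7 : w ^ 2 = b ^ 2 := by rw [← sq_abs w, ← sq_abs b, habs]
        linear_combination -h7
      rw [h5, h6]; ring
    · have h4 := cf_eq h
      have hw := qf_sq_sub w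
      have hb := qf_sq_sub b
      linear_combination 4 * h4 + 4 * hb - 4 * hw
  have e : Gf w b = p0 w * (1 / 2 - sf w b) + p1 w * (1 / 2 + sf w b) := by
    have hp : p0 w = qf w - w / 2 := by rw [qf]; ring
    have hp1 : p1 w = qf w + w / 2 := by rw [p1, qf]; ring
    rw [Gf, sf, hp, hp1]
    have e3 : (w + b) ^ 2 / (8 * (qf w + qf b + 2 * cf w b)) + w * (-(w + b) / (4 * (qf w + qf b
        + 2 * cf w b))) = (qf b - qf w) / 2 := by
      field_simp
      linear_combination -8 * key
    linear_combination -e3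
  rw [e, div_le_iff₀ (by linarith)]
  nlinarith [sq_nonneg ((1 / 2 - sf w b) - (1 / 2 + sf w b)), mul_pos h0 h1,
    mul_nonneg (mul_pos h0 h1).le (sq_nonneg ((1 / 2 - sf w b) - (1 / 2 + sf w b)))]

end

end Vale.Agent.P369.H916
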